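import Mathlib

namespace Vale.Agent.Results.P062.StripFive

/-- The hexomino Snaky. -/
def snaky : Finset (ℤ × ℤ) := {(0, 0), (1, 0), (2, 0), (3, 0), (3, 1), (4, 1)}

/-- `A` is an allowed copy of Snaky: the image of `snaky` under one of the eight signed
permutation matrices, followed by a translation by `t`. -/
def IsCopy (A : Finset (ℤ × ℤ)) : Prop :=
  ∃ (t : ℤ × ℤ) (a b : ℤ), (a = 1 ∨ a = -1) ∧ (b = 1 ∨ b = -1) ∧
    (A = snaky.image (fun c => (t.1 + a * c.1, t.2 + b * c.2)) ∨
     A = snaky.image (fun c => (t.1 + a * c.2, t.2 + b * c.1)))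

/-- `MakerWins board M B`: in the Maker-Breaker achievement game for Snaky played on the cells of
`board`, with Maker owning `M`, Breaker owning `B` and Maker to move, Maker can force, after
finitely many turns, the ownership of an allowed copy lying inside the board. -/
inductive MakerWins (board : Set (ℤ × ℤ)) : Finset (ℤ × ℤ) → Finset (ℤ × ℤ) → Prop
  | win (M B : Finset (ℤ × ℤ)) (m : ℤ × ℤ) (hm : m ∈ board) (hM : m ∉ M) (hB : m ∉ B)
      (A : Finset (ℤ × ℤ)) (hA : IsCopy A) (hAb : ∀ c ∈ A, c ∈ board) (hAM : A ⊆ insert m M) :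
      MakerWins board M B
  | step (M B : Finset (ℤ × ℤ)) (m : ℤ × ℤ) (hm : m ∈ board) (hM : m ∉ M) (hB : m ∉ B)
      (hex : ∃ b ∈ board, b ∉ insert m M ∧ b ∉ B)
      (h : ∀ b ∈ board, b ∉ insert m M → b ∉ B → MakerWins board (insert m M) (insert b B)) :
      MakerWins board M B

/-- The pairing: columns `0, 1 (mod 4)` are paired horizontally; in columns `2, 3 (mod 4)` rows
`0, 1` and rows `3, 4` are paired vertically. -/
def mate (c : ℤ × ℤ) : ℤ × ℤ :=
  if c.1 % 4 = 0 then (c.1 + 1, c.2)
  else if c.1 % 4 = 1 then (c.1 - 1, c.2)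
  else if c.2 = 0 then (c.1, 1)
  else if c.2 = 1 then (c.1, 0)
  else if c.2 = 3 then (c.1, 4)
  else if c.2 = 4 then (c.1, 3)
  else c

theorem mate_mate (c : ℤ × ℤ) : mate (mate c) = c := by
  obtain ⟨x, y⟩ := c
  unfold mate
  have hx : x % 4 = 0 ∨ x % 4 = 1 ∨ x % 4 = 2 ∨ x % 4 = 3 := by omega
  rcases hx with hx | hx | hx | hx
  · have h1 : (x + 1) % 4 = 1 := by omega
    simp [hx, h1]
  · have h1 : (x - 1) % 4 = 0 := by omega
    simp [hx, h1]
  · by_cases h0 : y = 0
    · simp [hx, h0]
    by_cases h1 : y = 1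
    · simp [hx, h1]
    by_cases h3 : y = 3
    · simp [hx, h3]
    by_cases h4 : y = 4
    · simp [hx, h4]
    simp [hx, h0, h1, h3, h4]
  · by_cases h0 : y = 0
    · simp [hx, h0]
    by_cases h1 : y = 1
    · simp [hx, h1]
    by_cases h3 : y = 3
    · simp [hx, h3]
    by_cases h4 : y = 4
    · simp [hx, h4]
    simp [hx, h0, h1, h3, h4]

theorem helper (f : ℤ × ℤ → ℤ × ℤ) (p q : ℤ × ℤ) (hp : p ∈ snaky) (hq : q ∈ snaky)
    (hne : f q ≠ f p) (hm : mate (f p) = f q) :
    ∃ c ∈ snaky.image f, mate c ≠ c ∧ mate c ∈ snaky.image f :=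
  ⟨f p, Finset.mem_image_of_mem f hp, by rw [hm]; exact hne,
    by rw [hm]; exact Finset.mem_image_of_mem f hq⟩

theorem mate_eq (x y x' y' : ℤ)
    (h : (x % 4 = 0 ∧ x' = x + 1 ∧ y' = y) ∨ (x % 4 = 1 ∧ x' = x - 1 ∧ y' = y) ∨
      ((x % 4 = 2 ∨ x % 4 = 3) ∧ x' = x ∧
        ((y = 0 ∧ y' = 1) ∨ (y = 1 ∧ y' = 0) ∨ (y = 3 ∧ y' = 4) ∨ (y = 4 ∧ y' = 3)))) :
    mate (x, y) = (x', y') := by
  unfold mate
  dsimp only
  rcases h with ⟨h, h1, h2⟩ | ⟨h, h1, h2⟩ | ⟨h, h1, h'⟩
  · subst h1 h2
    rw [if_pos h]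
  · subst h1 h2
    have h0 : x % 4 ≠ 0 := by omega
    rw [if_neg h0, if_pos h]
  · rw [h1]
    have h0 : x % 4 ≠ 0 := by omega
    have h1 : x % 4 ≠ 1 := by omega
    rw [if_neg h0, if_neg h1]
    rcases h' with ⟨rfl, rfl⟩ | ⟨rfl, rfl⟩ | ⟨rfl, rfl⟩ | ⟨rfl, rfl⟩ <;> simp

/-- Every allowed copy inside the five-row strip contains a pair. -/
theorem copy_has_pair (A : Finset (ℤ × ℤ)) (hA : IsCopy A) (hs : ∀ c ∈ A, 0 ≤ c.2 ∧ c.2 ≤ 4) :
    ∃ c ∈ A, mate c ≠ c ∧ mate c ∈ A := by
  obtain ⟨⟨tx, ty⟩, a, b, ha, hb, hA⟩ := hA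
  have hx : tx % 4 = 0 ∨ tx % 4 = 1 ∨ tx % 4 = 2 ∨ tx % 4 = 3 := by omega
  have key : ∀ f : ℤ × ℤ → ℤ × ℤ, A = snaky.image f →
      (0 ≤ (f (0, 0)).2 ∧ (f (0, 0)).2 ≤ 4) ∧ (0 ≤ (f (4, 1)).2 ∧ (f (4, 1)).2 ≤ 4) := by
    intro f hf
    exact ⟨hs _ (hf ▸ Finset.mem_image_of_mem f (by decide)),
      hs _ (hf ▸ Finset.mem_image_of_mem f (by decide))⟩
  rcases ha with rfl | rfl <;> rcases hb with rfl | rfl <;> rcases hA with hA | hA <;>
    have hk := key _ hA <;> dsimp only at hk <;> subst hA <;>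
    rcases hx with hx | hx | hx | hx
  · exact helper _ (0, 0) (1, 0) (by decide) (by decide) (by simp) (mate_eq _ _ _ _ (by omega))
  · exact helper _ (3, 1) (4, 1) (by decide) (by decide) (by simp) (mate_eq _ _ _ _ (by omega))
  · exact helper _ (2, 0) (3, 0) (by decide) (by decide) (by simp) (mate_eq _ _ _ _ (by omega))
  · exact helper _ (1, 0) (2, 0) (by decide) (by decide) (by simp) (mate_eq _ _ _ _ (by omega))
  · exact helper _ (3, 0) (3, 1) (by decide) (by decide) (by simp) (mate_eq _ _ _ _ (by omega))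
  · exact helper _ (3, 1) (4, 1) (by decide) (by decide) (by simp) (mate_eq _ _ _ _ (by omega))
  · exact helper _ (0, 0) (1, 0) (by decide) (by decide) (by simp) (mate_eq _ _ _ _ (by omega))
  · exact helper _ (0, 0) (1, 0) (by decide) (by decide) (by simp) (mate_eq _ _ _ _ (by omega))
  · exact helper _ (0, 0) (1, 0) (by decide) (by decide) (by simp) (mate_eq _ _ _ _ (by omega))
  · exact helper _ (3, 1) (4, 1) (by decide) (by decide) (by simp) (mate_eq _ _ _ _ (by omega))
  · exact helper _ (2, 0) (3, 0) (by decide) (by decide) (by simp) (mate_eq _ _ _ _ (by omega))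
  · exact helper _ (1, 0) (2, 0) (by decide) (by decide) (by simp) (mate_eq _ _ _ _ (by omega))
  · exact helper _ (3, 0) (3, 1) (by decide) (by decide) (by simp) (mate_eq _ _ _ _ (by omega))
  · exact helper _ (3, 1) (4, 1) (by decide) (by decide) (by simp) (mate_eq _ _ _ _ (by omega))
  · exact helper _ (0, 0) (1, 0) (by decide) (by decide) (by simp) (mate_eq _ _ _ _ (by omega))
  · exact helper _ (0, 0) (1, 0) (by decide) (by decide) (by simp) (mate_eq _ _ _ _ (by omega))
  · exact helper _ (3, 1) (4, 1) (by decide) (by decide) (by simp) (mate_eq _ _ _ _ (by omega))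
  · exact helper _ (0, 0) (1, 0) (by decide) (by decide) (by simp) (mate_eq _ _ _ _ (by omega))
  · exact helper _ (1, 0) (2, 0) (by decide) (by decide) (by simp) (mate_eq _ _ _ _ (by omega))
  · exact helper _ (2, 0) (3, 0) (by decide) (by decide) (by simp) (mate_eq _ _ _ _ (by omega))
  · exact helper _ (3, 1) (4, 1) (by decide) (by decide) (by simp) (mate_eq _ _ _ _ (by omega))
  · exact helper _ (3, 0) (3, 1) (by decide) (by decide) (by simp) (mate_eq _ _ _ _ (by omega))
  · exact helper _ (0, 0) (1, 0) (by decide) (by decide) (by simp) (mate_eq _ _ _ _ (by omega))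
  · exact helper _ (0, 0) (1, 0) (by decide) (by decide) (by simp) (mate_eq _ _ _ _ (by omega))
  · exact helper _ (3, 1) (4, 1) (by decide) (by decide) (by simp) (mate_eq _ _ _ _ (by omega))
  · exact helper _ (0, 0) (1, 0) (by decide) (by decide) (by simp) (mate_eq _ _ _ _ (by omega))
  · exact helper _ (1, 0) (2, 0) (by decide) (by decide) (by simp) (mate_eq _ _ _ _ (by omega))
  · exact helper _ (2, 0) (3, 0) (by decide) (by decide) (by simp) (mate_eq _ _ _ _ (by omega))
  · exact helper _ (3, 1) (4, 1) (by decide) (by decide) (by simp) (mate_eq _ _ _ _ (by omega))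
  · exact helper _ (3, 0) (3, 1) (by decide) (by decide) (by simp) (mate_eq _ _ _ _ (by omega))
  · exact helper _ (0, 0) (1, 0) (by decide) (by decide) (by simp) (mate_eq _ _ _ _ (by omega))
  · exact helper _ (0, 0) (1, 0) (by decide) (by decide) (by simp) (mate_eq _ _ _ _ (by omega))

theorem no_win (board : Set (ℤ × ℤ)) (hb : ∀ c ∈ board, 0 ≤ c.2 ∧ c.2 ≤ 4)
    (M B : Finset (ℤ × ℤ)) (hw : MakerWins board M B) :
    Disjoint M B → (∀ c ∈ M, mate c ≠ c → mate c ∈ board → mate c ∈ B) → False := by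
  induction hw with
  | win M B m hm hM hB A hA hAb hAM =>
    intro hd hinv
    obtain ⟨c, hc, hne, hmc⟩ := copy_has_pair A hA (fun c hc => hb c (hAb c hc))
    have h1 := hAM hc
    have h2 := hAM hmc
    rw [Finset.mem_insert] at h1 h2
    rcases h1 with h1 | h1
    · rcases h2 with h2 | h2
      · exact hne (h2.trans h1.symm)
      · have h3 := hinv (mate c) h2 (by rw [mate_mate]; exact fun h => hne h.symm)
          (by rw [mate_mate]; exact hAb c hc)
        rw [mate_mate, h1] at h3
        exact hB h3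
    · have h3 := hinv c h1 hne (hAb _ hmc)
      rcases h2 with h2 | h2
      · rw [h2] at h3; exact hB h3
      · exact (Finset.disjoint_left.mp hd h2) h3
  | step M B m hm hM hB hex h ih =>
    intro hd hinv
    by_cases hcase : mate m ≠ m ∧ mate m ∈ board ∧ mate m ∉ B
    · obtain ⟨hne, hmb, hmB⟩ := hcase
      have hmM : mate m ∉ insert m M := by
        rw [Finset.mem_insert]
        rintro (h1 | h1)
        · exact hne h1
        · have h3 := hinv (mate m) h1 (by rw [mate_mate]; exact fun h => hne h.symm)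
            (by rw [mate_mate]; exact hm)
          rw [mate_mate] at h3
          exact hB h3
      refine ih (mate m) hmb hmM hmB ?_ ?_
      · rw [Finset.disjoint_left]
        intro x hx hx'
        rw [Finset.mem_insert] at hx'
        rcases hx' with hx' | hx'
        · exact hmM (hx' ▸ hx)
        · rw [Finset.mem_insert] at hx
          rcases hx with hx | hx
          · exact hB (hx ▸ hx')
          · exact (Finset.disjoint_left.mp hd hx) hx'
      · intro c hc hne' hcb
        rw [Finset.mem_insert] at hc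
        rcases hc with hc | hc
        · rw [hc]; exact Finset.mem_insert_self _ _
        · exact Finset.mem_insert_of_mem (hinv c hc hne' hcb)
    · obtain ⟨b, hbb, hbM, hbB⟩ := hex
      refine ih b hbb hbM hbB ?_ ?_
      · rw [Finset.disjoint_left]
        intro x hx hx'
        rw [Finset.mem_insert] at hx'
        rcases hx' with hx' | hx'
        · exact hbM (hx' ▸ hx)
        · rw [Finset.mem_insert] at hx
          rcases hx with hx | hx
          · exact hB (hx ▸ hx')
          · exact (Finset.disjoint_left.mp hd hx) hx'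
      · intro c hc hne' hcb
        rw [Finset.mem_insert] at hc
        rcases hc with hc | hc
        · subst hc
          by_contra hcon
          exact hcase ⟨hne', hcb, fun h' => hcon (Finset.mem_insert_of_mem h')⟩
        · exact Finset.mem_insert_of_mem (hinv c hc hne' hcb)

/-- Breaker wins the Snaky achievement game on every board contained in the five-row strip. -/
theorem result : ∀ board : Set (ℤ × ℤ), (∀ c ∈ board, 0 ≤ c.2 ∧ c.2 ≤ 4) →
    ¬ MakerWins board ∅ ∅ := by
  intro board hb hw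
  exact no_win board hb ∅ ∅ hw (Finset.disjoint_empty_left _) (by simp)

end Vale.Agent.Results.P062.StripFive
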